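import Mathlib
import Vale.Agent.Lib.P327.Defs
import Vale.Agent.Lib.P327.LocalMain

/-!
# Maps of Cantor space with computable moduli induce only the trivial automorphism

Let `Φ` be a map on subsets of `ℕ` (Cantor space) such that, for computable functions `r` and
`e`, the bit `m` of `Φ X` depends only on the bits `i ≤ r m` of `X` (a computable modulus of
uniform continuity), and changing `X` only below `k` changes `Φ X` only below `e k` (a
computable modulus of uniform invariance under finite modifications). If an automorphism `π`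
of the Turing degrees is induced by `Φ`, then `π` is the identity. No bijectivity of `Φ` is
assumed.
-/

namespace Vale.Agent.Results.P327.ComputableModuli

open Vale.Agent.Lib.P327

theorem result (Φ : Set ℕ → Set ℕ) (r e : ℕ → ℕ) (hr : Computable r) (he : Computable e)
    (hcont : ∀ (m : ℕ) (X Y : Set ℕ),
      (∀ i, i ≤ r m → (i ∈ X ↔ i ∈ Y)) → (m ∈ Φ X ↔ m ∈ Φ Y))
    (htail : ∀ (k : ℕ) (X Y : Set ℕ),
      (∀ i, k ≤ i → (i ∈ X ↔ i ∈ Y)) → ∀ m, e k ≤ m → (m ∈ Φ X ↔ m ∈ Φ Y))
    (π : Deg → Deg) (hπ : IsAut π) (hΦ : ∀ X : Set ℕ, π (deg X) = deg (Φ X)) :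
    ∀ d : Deg, π d = d :=
  local_trivial Φ hcont htail hr he π hπ hΦ

end Vale.Agent.Results.P327.ComputableModuli
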