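import Mathlib
import Vale.Agent.Lib.P327.Defs
import Vale.Agent.Lib.P327.EZero

/-!
# Bi-uniformly E_0-invariant homeomorphisms induce only the trivial automorphism

Let `F` be a homeomorphism of Cantor space (the subsets of `ℕ`), with inverse `G`: both are
continuous (every output bit depends on finitely many input bits). Suppose that `F` and `G`
are uniformly invariant under finite modifications: for every `k` there is `e` such that inputs
agreeing from `k` on have outputs agreeing from `e` on. If an automorphism `π` of the Turing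
degrees is induced by `F`, then `π` is the identity. No computability assumption is made on
`F`, `G` or on their moduli. All maps induced by permutations of `ℕ` are of this kind.
-/

namespace Vale.Agent.Results.P327.EZeroHomeo

open Vale.Agent.Lib.P327

theorem result (F G : Set ℕ → Set ℕ) (hGF : ∀ X, G (F X) = X) (hFG : ∀ Y, F (G Y) = Y)
    (hFc : ∀ m, ∃ r, ∀ X Y : Set ℕ, (∀ i, i < r → (i ∈ X ↔ i ∈ Y)) → (m ∈ F X ↔ m ∈ F Y))
    (hGc : ∀ m, ∃ r, ∀ X Y : Set ℕ, (∀ i, i < r → (i ∈ X ↔ i ∈ Y)) → (m ∈ G X ↔ m ∈ G Y))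
    (hFt : ∀ k, ∃ e, ∀ X Y : Set ℕ, (∀ i, k ≤ i → (i ∈ X ↔ i ∈ Y)) →
      ∀ m, e ≤ m → (m ∈ F X ↔ m ∈ F Y))
    (hGt : ∀ k, ∃ e, ∀ X Y : Set ℕ, (∀ i, k ≤ i → (i ∈ X ↔ i ∈ Y)) →
      ∀ m, e ≤ m → (m ∈ G X ↔ m ∈ G Y))
    (π : Deg → Deg) (hπ : IsAut π) (hF : ∀ X : Set ℕ, π (deg X) = deg (F X)) :
    ∀ d : Deg, π d = d :=
  ezero_trivial F G hGF hFG hFc hGc hFt hGt π hπ hF

end Vale.Agent.Results.P327.EZeroHomeo
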