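import Mathlib
import Vale.Agent.Lib.P327.Defs
import Vale.Agent.Lib.P327.OneSided

/-!
# Homeomorphisms that are uniformly E_0-invariant in one direction induce only the trivial
automorphism

Let `F` be a homeomorphism of Cantor space (the subsets of `ℕ`), with inverse `G`: both are
continuous (every output bit depends on finitely many input bits). Suppose that at least one of
`F`, `G` is uniformly invariant under finite modifications: for every `k` there is `e` such that
inputs agreeing from `k` on have outputs agreeing from `e` on. If an automorphism `π` of the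
Turing degrees is induced by `F`, then `π` is the identity. No computability assumption is made
on `F`, `G` or on their moduli, and nothing is assumed about invariance of the other direction.
All maps induced by permutations of `ℕ` are of this kind.
-/

namespace Vale.Agent.Results.P327.EZeroOneSided

open Vale.Agent.Lib.P327

theorem result (F G : Set ℕ → Set ℕ) (hGF : ∀ X, G (F X) = X) (hFG : ∀ Y, F (G Y) = Y)
    (hFc : ∀ m, ∃ r, ∀ X Y : Set ℕ, (∀ i, i < r → (i ∈ X ↔ i ∈ Y)) → (m ∈ F X ↔ m ∈ F Y))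
    (hGc : ∀ m, ∃ r, ∀ X Y : Set ℕ, (∀ i, i < r → (i ∈ X ↔ i ∈ Y)) → (m ∈ G X ↔ m ∈ G Y))
    (hT : (∀ k, ∃ e, ∀ X Y : Set ℕ, (∀ i, k ≤ i → (i ∈ X ↔ i ∈ Y)) →
        ∀ m, e ≤ m → (m ∈ F X ↔ m ∈ F Y)) ∨
      (∀ k, ∃ e, ∀ X Y : Set ℕ, (∀ i, k ≤ i → (i ∈ X ↔ i ∈ Y)) →
        ∀ m, e ≤ m → (m ∈ G X ↔ m ∈ G Y)))
    (π : Deg → Deg) (hπ : IsAut π) (hF : ∀ X : Set ℕ, π (deg X) = deg (F X)) :
    ∀ d : Deg, π d = d :=
  one_sided_trivial F G hGF hFG hFc hGc hT π hπ hF

end Vale.Agent.Results.P327.EZeroOneSided
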