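import Mathlib
import Vale.Agent.Lib.P327.Defs
import Vale.Agent.Lib.P327.LocalMain
import Vale.Agent.Lib.P327.OneSided

/-!
# Two classes of maps of Cantor space that induce only the trivial automorphism, in one statement

First part: a map `Φ` on subsets of `ℕ` with a computable modulus of uniform continuity `r` and
a computable modulus `e` of uniform invariance under finite modifications (no bijectivity
assumed).  Second part: a homeomorphism `F` of Cantor space with inverse `G`, both continuous,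
such that at least one of `F`, `G` is uniformly invariant under finite modifications (no
computability assumed).  In both cases an automorphism of the Turing degrees induced by the map
is the identity.
-/

namespace Vale.Agent.Results.P327.Omnibus

open Vale.Agent.Lib.P327

theorem result :
    (∀ (Φ : Set ℕ → Set ℕ) (r e : ℕ → ℕ), Computable r → Computable e →
      (∀ (m : ℕ) (X Y : Set ℕ),
        (∀ i, i ≤ r m → (i ∈ X ↔ i ∈ Y)) → (m ∈ Φ X ↔ m ∈ Φ Y)) →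
      (∀ (k : ℕ) (X Y : Set ℕ),
        (∀ i, k ≤ i → (i ∈ X ↔ i ∈ Y)) → ∀ m, e k ≤ m → (m ∈ Φ X ↔ m ∈ Φ Y)) →
      ∀ (π : Deg → Deg), IsAut π → (∀ X : Set ℕ, π (deg X) = deg (Φ X)) →
      ∀ d : Deg, π d = d) ∧
    (∀ (F G : Set ℕ → Set ℕ), (∀ X, G (F X) = X) → (∀ Y, F (G Y) = Y) →
      (∀ m, ∃ r, ∀ X Y : Set ℕ, (∀ i, i < r → (i ∈ X ↔ i ∈ Y)) → (m ∈ F X ↔ m ∈ F Y)) →
      (∀ m, ∃ r, ∀ X Y : Set ℕ, (∀ i, i < r → (i ∈ X ↔ i ∈ Y)) → (m ∈ G X ↔ m ∈ G Y)) →
      ((∀ k, ∃ e, ∀ X Y : Set ℕ, (∀ i, k ≤ i → (i ∈ X ↔ i ∈ Y)) →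
          ∀ m, e ≤ m → (m ∈ F X ↔ m ∈ F Y)) ∨
        (∀ k, ∃ e, ∀ X Y : Set ℕ, (∀ i, k ≤ i → (i ∈ X ↔ i ∈ Y)) →
          ∀ m, e ≤ m → (m ∈ G X ↔ m ∈ G Y))) →
      ∀ (π : Deg → Deg), IsAut π → (∀ X : Set ℕ, π (deg X) = deg (F X)) →
      ∀ d : Deg, π d = d) :=
  ⟨fun Φ _ _ hr he hcont htail π hπ hΦ => local_trivial Φ hcont htail hr he π hπ hΦ,
    fun F G hGF hFG hFc hGc hT π hπ hF => one_sided_trivial F G hGF hFG hFc hGc hT π hπ hF⟩

end Vale.Agent.Results.P327.Omnibus
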